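import Vale.Agent.P097.Approx
import Vale.Agent.P097.Profile0
import Vale.Agent.P097.Conv2
import Vale.Agent.P097.InvCurve

/-!
P097 (near-boundary Birkhoff conjecture), partial result.

Let `γ` be the boundary of a table of the problem (smooth, strictly convex, positive curvature).

(1) The table is an ellipse if and only if there is a continuous function `g`, not identically
zero, such that `F (s, δ) = g s * sin δ` is invariant under the billiard map up to fourth order at
the boundary: for every `s`, along some sequence of chords from `γ s` to `γ t` with `t → s+`,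
`F (T (s, δ)) - F (s, δ) = o((t - s)^4)`.

(2) If there are invariant curves `{sin δ = c * f s}` of the billiard map for arbitrarily small
`c > 0`, with one continuous positive function `f`, then the table is an ellipse.
-/

namespace Vale.Agent.Results.P097.ApproxIntegral

open Vale.Agent.P097
open scoped ContDiff

theorem result (γ : ℝ → ℂ) (L : ℝ) (hT : Table γ L) (hsm : ContDiff ℝ ∞ γ)
    (hκ : ∀ s, 0 < ((starRingEnd ℂ) (deriv γ s) * deriv (deriv γ) s).im) :
    (IsEllipse (Set.range γ) ↔
      ∃ g : ℝ → ℝ, Continuous g ∧ (∃ s, g s ≠ 0) ∧ FourthOrder γ L g) ∧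
    ((∃ f : ℝ → ℝ, Continuous f ∧ (∀ s, 0 < f s) ∧
        ∀ ε : ℝ, 0 < ε → ∃ c : ℝ, 0 < c ∧ c < ε ∧ InvCurve γ L f c) →
      IsEllipse (Set.range γ)) := by
  refine ⟨⟨exists_fourth γ L hT, ?_⟩, ?_⟩
  · rintro ⟨g, hg, hne, h⟩
    exact approx γ L hT hsm hκ g hg hne h
  · rintro ⟨f, hf, hpos, h⟩
    exact profile0 γ L hT hsm hκ f hf hpos h

end Vale.Agent.Results.P097.ApproxIntegral
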