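import Vale.Agent.P097.Conv

/-!
P097 (near-boundary Birkhoff conjecture), partial result.

Let `γ` be the boundary of a strictly convex table with `C¹` boundary (in particular, of any table
of the problem).  The table is an ellipse if and only if, near the boundary, the billiard map has
a first integral of the form `F (s, δ) = a s * cos δ + b s * sin δ`, where `a` and `b` are
arbitrary functions, not both identically zero (no continuity is assumed).
-/

namespace Vale.Agent.Results.P097.LinearIntegral

open Vale.Agent.P097

theorem result (γ : ℝ → ℂ) (L : ℝ) (hT : Table γ L) :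
    IsEllipse (Set.range γ) ↔
      ∃ a b : ℝ → ℝ, (∃ s, a s ≠ 0 ∨ b s ≠ 0) ∧
        ∃ η : ℝ, 0 < η ∧ ∀ s δ t δ', Maps γ L s δ t δ' → δ < η → δ' < η →
          a s * Real.cos δ + b s * Real.sin δ = a t * Real.cos δ' + b t * Real.sin δ' := by
  constructor
  · intro hE
    obtain ⟨b, hb, h⟩ := joachimsthal γ L hT hE
    refine ⟨fun _ => 0, b, ⟨0, Or.inr (hb 0)⟩, 1, one_pos, fun s δ t δ' hm _ _ => ?_⟩
    rw [zero_mul, zero_mul, zero_add, zero_add]
    exact h s δ t δ' hm
  · rintro ⟨a, b, hne, η, hη, hinv⟩
    exact main γ L hT a b hne η hη hinv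

end Vale.Agent.Results.P097.LinearIntegral
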