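import Vale.Agent.P097.Profile
import Vale.Agent.P097.InvCurve

/-!
P097 (near-boundary Birkhoff conjecture), partial result.

Let `γ` be the boundary of a strictly convex table, smooth and of positive curvature.  Suppose
that there are invariant curves `{sin δ = c * f s}` of the billiard map for arbitrarily small
`c > 0`, with one smooth positive function `f` on the boundary.  Then the table is an ellipse.
Only a sequence of invariant curves is needed, and nothing is assumed between them.
-/

namespace Vale.Agent.Results.P097.ProfileSequence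

open Vale.Agent.P097
open scoped ContDiff

theorem result (γ : ℝ → ℂ) (L : ℝ) (hT : Table γ L) (hsm : ContDiff ℝ ∞ γ)
    (hκ : ∀ s, 0 < ((starRingEnd ℂ) (deriv γ s) * deriv (deriv γ) s).im)
    (f : ℝ → ℝ) (hf : ContDiff ℝ ∞ f) (hfpos : ∀ s, 0 < f s)
    (hinv : ∀ ε : ℝ, 0 < ε → ∃ c : ℝ, 0 < c ∧ c < ε ∧ InvCurve γ L f c) :
    IsEllipse (Set.range γ) :=
  profile γ L hT hsm hκ f hf hfpos hinv

end Vale.Agent.Results.P097.ProfileSequence
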